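import Mathlib

/-!
Chord bounds for the two concave functions
  x(v) = sinh v / (sinh l * sinh (l + v))   (= coth l - coth (l + v)),
  z(v) = sinh v / (cosh l * cosh (l + v))   (= tanh (l + v) - tanh l)
on an interval [0, w]: each lies above its chord through 0 and w.
No calculus of coth or tanh is used: by the addition formulas both bounds reduce to
  s * sinh t ≤ t * sinh s * cosh (s + t)   for s, t ≥ 0.
-/

namespace Vale.Agent.Helper16.WnChord

open Real

theorem sinh_le_mul_cosh (t : ℝ) (ht : 0 ≤ t) : sinh t ≤ t * cosh t := by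
  have hmono : MonotoneOn (fun x : ℝ => x * cosh x - sinh x) (Set.Ici 0) := by
    apply monotoneOn_of_deriv_nonneg (convex_Ici 0)
    · fun_prop
    · fun_prop
    · intro x hx
      rw [interior_Ici] at hx
      have hx0 : 0 < x := hx
      have hd : HasDerivAt (fun x : ℝ => x * cosh x - sinh x)
          (1 * cosh x + x * sinh x - cosh x) x :=
        ((hasDerivAt_id x).mul (Real.hasDerivAt_cosh x)).sub (Real.hasDerivAt_sinh x)
      rw [hd.deriv]
      have h1 : 0 ≤ sinh x := Real.sinh_nonneg_iff.mpr hx0.le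
      nlinarith [mul_nonneg hx0.le h1]
  have h := hmono (Set.self_mem_Ici) (Set.mem_Ici.mpr ht) ht
  simp only [zero_mul, Real.sinh_zero, sub_zero] at h
  linarith

theorem key (s t : ℝ) (hs : 0 ≤ s) (ht : 0 ≤ t) :
    s * sinh t ≤ t * sinh s * cosh (s + t) := by
  have h1 : s ≤ sinh s := Real.self_le_sinh_iff.mpr hs
  have h2 : 0 ≤ sinh t := Real.sinh_nonneg_iff.mpr ht
  have h3 : 0 ≤ sinh s := Real.sinh_nonneg_iff.mpr hs
  have h4 : sinh t ≤ t * cosh t := sinh_le_mul_cosh t ht
  have h5 : cosh t ≤ cosh (s + t) := by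
    rw [Real.cosh_le_cosh, abs_of_nonneg ht, abs_of_nonneg (add_nonneg hs ht)]
    linarith
  calc s * sinh t ≤ sinh s * sinh t := mul_le_mul_of_nonneg_right h1 h2
    _ ≤ sinh s * (t * cosh t) := mul_le_mul_of_nonneg_left h4 h3
    _ ≤ sinh s * (t * cosh (s + t)) :=
        mul_le_mul_of_nonneg_left (mul_le_mul_of_nonneg_left h5 ht) h3
    _ = t * sinh s * cosh (s + t) := by ring

/-- core inequality behind the chord bound for `x` -/
theorem core_x (l v t : ℝ) (hl : 0 ≤ l) (hv : 0 ≤ v) (ht : 0 ≤ t) :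
    v * sinh (v + t) * sinh (l + v) ≤ (v + t) * sinh v * sinh (l + (v + t)) := by
  have hk := key v t hv ht
  have hsl : 0 ≤ sinh l := Real.sinh_nonneg_iff.mpr hl
  have hsv : 0 ≤ sinh v := Real.sinh_nonneg_iff.mpr hv
  have hst : 0 ≤ sinh t := Real.sinh_nonneg_iff.mpr ht
  have hsvt : 0 ≤ sinh (v + t) := Real.sinh_nonneg_iff.mpr (add_nonneg hv ht)
  have hcl : 0 < cosh l := Real.cosh_pos l
  -- v sinh t sinh l ≤ t sinh v sinh (l + v + t)
  have h1 : v * sinh t * sinh l ≤ t * sinh v * cosh (v + t) * sinh l :=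
    mul_le_mul_of_nonneg_right hk hsl
  have h2 : t * sinh v * (cosh (v + t) * sinh l) ≤ t * sinh v * sinh (l + (v + t)) := by
    apply mul_le_mul_of_nonneg_left _ (mul_nonneg ht hsv)
    rw [Real.sinh_add l (v + t)]
    nlinarith [mul_nonneg hcl.le hsvt]
  have hid : (v + t) * sinh v * sinh (l + (v + t)) - v * sinh (v + t) * sinh (l + v)
      = t * sinh v * sinh (l + (v + t)) - v * sinh t * sinh l := by
    have e1 : l + (v + t) = (l + v) + t := by ring
    rw [e1, Real.sinh_add (l + v) t, Real.sinh_add v t, Real.sinh_add l v]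
    have hc := Real.cosh_add l v
    rw [hc]
    have hcs := Real.cosh_sq v
    linear_combination (-(v * sinh t * sinh l)) * hcs
  nlinarith [h1, h2, hid]

/-- core inequality behind the chord bound for `z` -/
theorem core_z (l v t : ℝ) (hl : 0 ≤ l) (hv : 0 ≤ v) (ht : 0 ≤ t) :
    v * sinh (v + t) * cosh (l + v) ≤ (v + t) * sinh v * cosh (l + (v + t)) := by
  have hk := key v t hv ht
  have hsl : 0 ≤ sinh l := Real.sinh_nonneg_iff.mpr hl
  have hsv : 0 ≤ sinh v := Real.sinh_nonneg_iff.mpr hv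
  have hsvt : 0 ≤ sinh (v + t) := Real.sinh_nonneg_iff.mpr (add_nonneg hv ht)
  have hcl : 0 < cosh l := Real.cosh_pos l
  have h1 : v * sinh t * cosh l ≤ t * sinh v * cosh (v + t) * cosh l :=
    mul_le_mul_of_nonneg_right hk hcl.le
  have h2 : t * sinh v * (cosh (v + t) * cosh l) ≤ t * sinh v * cosh (l + (v + t)) := by
    apply mul_le_mul_of_nonneg_left _ (mul_nonneg ht hsv)
    rw [Real.cosh_add l (v + t)]
    nlinarith [mul_nonneg hsl hsvt]
  have hid : (v + t) * sinh v * cosh (l + (v + t)) - v * sinh (v + t) * cosh (l + v)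
      = t * sinh v * cosh (l + (v + t)) - v * sinh t * cosh l := by
    have e1 : l + (v + t) = (l + v) + t := by ring
    rw [e1, Real.cosh_add (l + v) t, Real.sinh_add v t, Real.cosh_add l v]
    have hs := Real.sinh_add l v
    rw [hs]
    have hcs := Real.cosh_sq v
    linear_combination (-(v * sinh t * cosh l)) * hcs
  nlinarith [h1, h2, hid]

theorem chord_x (l v w : ℝ) (hl : 0 < l) (hv : 0 ≤ v) (hvw : v ≤ w) (hw : 0 < w) :
    v / w * (sinh w / (sinh l * sinh (l + w))) ≤ sinh v / (sinh l * sinh (l + v)) := by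
  have hsl : 0 < sinh l := Real.sinh_pos_iff.mpr hl
  have hslw : 0 < sinh (l + w) := Real.sinh_pos_iff.mpr (by linarith)
  have hslv : 0 < sinh (l + v) := Real.sinh_pos_iff.mpr (by linarith)
  have hc := core_x l v (w - v) hl.le hv (by linarith)
  have e : v + (w - v) = w := by ring
  rw [e] at hc
  rw [div_mul_div_comm, div_le_div_iff₀ (by positivity) (by positivity)]
  nlinarith [mul_le_mul_of_nonneg_left hc hsl.le]

theorem chord_z (l v w : ℝ) (hl : 0 ≤ l) (hv : 0 ≤ v) (hvw : v ≤ w) (hw : 0 < w) :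
    v / w * (sinh w / (cosh l * cosh (l + w))) ≤ sinh v / (cosh l * cosh (l + v)) := by
  have hcl : 0 < cosh l := Real.cosh_pos l
  have hclw : 0 < cosh (l + w) := Real.cosh_pos _
  have hclv : 0 < cosh (l + v) := Real.cosh_pos _
  have hc := core_z l v (w - v) hl hv (by linarith)
  have e : v + (w - v) = w := by ring
  rw [e] at hc
  rw [div_mul_div_comm, div_le_div_iff₀ (by positivity) (by positivity)]
  nlinarith [mul_le_mul_of_nonneg_left hc hcl.le]

theorem sum_chord_x {ι : Type*} (s : Finset ι) (v : ι → ℝ) (l w : ℝ) (hl : 0 < l) (hw : 0 < w)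
    (hv : ∀ k ∈ s, 0 ≤ v k ∧ v k ≤ w) :
    (∑ k ∈ s, v k) / w * (sinh w / (sinh l * sinh (l + w)))
      ≤ ∑ k ∈ s, sinh (v k) / (sinh l * sinh (l + v k)) := by
  rw [Finset.sum_div, Finset.sum_mul]
  apply Finset.sum_le_sum
  intro k hk
  exact chord_x l (v k) w hl (hv k hk).1 (hv k hk).2 hw

theorem sum_chord_z {ι : Type*} (s : Finset ι) (v : ι → ℝ) (l w : ℝ) (hl : 0 ≤ l) (hw : 0 < w)
    (hv : ∀ k ∈ s, 0 ≤ v k ∧ v k ≤ w) :
    (∑ k ∈ s, v k) / w * (sinh w / (cosh l * cosh (l + w)))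
      ≤ ∑ k ∈ s, sinh (v k) / (cosh l * cosh (l + v k)) := by
  rw [Finset.sum_div, Finset.sum_mul]
  apply Finset.sum_le_sum
  intro k hk
  exact chord_z l (v k) w hl (hv k hk).1 (hv k hk).2 hw

end Vale.Agent.Helper16.WnChord
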