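import Vale.Agent.Helper8.KK.PairFacts

/-!
Labour lemma for P064 (helper16, for helper8): two distinct copies of a connected graph `F`
in `H`, both with all their edges in a red edge set `R`, the first one having no further red
edge at its vertex set, have disjoint vertex sets.
-/

namespace Vale.Agent.Helper8.KK

open Finset SimpleGraph

theorem good_copies_disjoint {n v : ℕ} (H : SimpleGraph (Fin n)) (F : SimpleGraph (Fin v))
    (hF : F.Connected) (R : Finset (Sym2 (Fin n)))
    (x y : Finset (Fin n) × Finset (Sym2 (Fin n)))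
    (hx : x ∈ pairs H F) (hy : y ∈ pairs H F)
    (hgx : x.2 ⊆ R ∧ Disjoint (bd H x.1 \ x.2) R) (hgy : y.2 ⊆ R) (hne : x ≠ y) :
    Disjoint x.1 y.1 := by
  classical
  rw [Finset.disjoint_left]
  intro c hcx hcy
  apply hne
  obtain ⟨f, hfi, hfhom, rfl⟩ := mem_pairs.mp hx
  obtain ⟨g, hgi, hghom, rfl⟩ := mem_pairs.mp hy
  -- closedness of the set of vertices of `F` sent by `g` into the vertex set of the first copy
  have hclosed : ∀ a a', F.Adj a a' → g a ∈ (pr F f).1 →
      s(g a, g a') ∈ (pr F f).2 ∧ g a' ∈ (pr F f).1 := by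
    intro a a' hadj hga
    have h1 : s(g a, g a') ∈ (pr F g).2 := by
      rw [prSnd, Finset.mem_image]
      refine ⟨s(a, a'), ?_, ?_⟩
      · rw [mem_edgeFinset, mem_edgeSet]; exact hadj
      · rw [Sym2.map_mk]
    have h2 : s(g a, g a') ∈ R := hgy h1
    have h3 : s(g a, g a') ∈ bd H (pr F f).1 := mem_bd.mpr ⟨hghom a a' hadj, Or.inl hga⟩
    have h4 : s(g a, g a') ∈ (pr F f).2 := by
      by_contra hnot
      exact Finset.disjoint_left.mp hgx.2 (Finset.mem_sdiff.mpr ⟨h3, hnot⟩) h2
    refine ⟨h4, ?_⟩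
    rw [prSnd, Finset.mem_image] at h4
    obtain ⟨z0, hz0, hz⟩ := h4
    induction z0 using Sym2.ind with
    | _ b b' =>
      rw [Sym2.map_mk, Sym2.eq_iff] at hz
      rw [prFst]
      rcases hz with ⟨_, h6⟩ | ⟨h5, _⟩
      · rw [← h6]; exact Finset.mem_image_of_mem f (Finset.mem_univ _)
      · rw [← h5]; exact Finset.mem_image_of_mem f (Finset.mem_univ _)
  obtain ⟨a0, ha0⟩ : ∃ a0, g a0 = c := by
    rw [prFst, Finset.mem_image] at hcy
    obtain ⟨a0, _, h⟩ := hcy
    exact ⟨a0, h⟩
  have hall : ∀ a, g a ∈ (pr F f).1 := by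
    intro a
    by_contra hna
    obtain ⟨w⟩ := hF.preconnected a0 a
    obtain ⟨dd, _, h1, h2⟩ := w.exists_boundary_dart {a | g a ∈ (pr F f).1}
      (by show g a0 ∈ (pr F f).1; rw [ha0]; exact hcx)
      (by show ¬ g a ∈ (pr F f).1; exact hna)
    exact h2 (hclosed _ _ dd.adj h1).2
  have hv : (pr F g).1 = (pr F f).1 := by
    apply Finset.eq_of_subset_of_card_le
    · intro d hd
      rw [prFst, Finset.mem_image] at hd
      obtain ⟨a, _, rfl⟩ := hd
      exact hall a
    · rw [pairCardFst H F _ hx, pairCardFst H F _ hy]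
  have he : (pr F g).2 = (pr F f).2 := by
    apply Finset.eq_of_subset_of_card_le
    · intro z hz
      rw [prSnd, Finset.mem_image] at hz
      obtain ⟨z0, hz0, rfl⟩ := hz
      induction z0 using Sym2.ind with
      | _ a a' =>
        rw [mem_edgeFinset, mem_edgeSet] at hz0
        rw [Sym2.map_mk]
        exact (hclosed a a' hz0 (hall a)).1
    · rw [pairCardSnd H F _ hx, pairCardSnd H F _ hy]
  exact (Prod.ext hv he).symm

end Vale.Agent.Helper8.KK
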