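import Vale.Agent.Helper8.KK.Defs

/-!
P064 labour lemma (for helper8): the number of outside neighbours of the vertex set of a copy
of `F` in `H` is at most the number of edges of `H` meeting that vertex set minus `e(F)`.
-/

namespace Vale.Agent.Helper8.KK

open Finset SimpleGraph

theorem card_nb_le {n v : ℕ} (H : SimpleGraph (Fin n)) (F : SimpleGraph (Fin v))
    (f : Fin v → Fin n) (hf : Function.Injective f)
    (hhom : ∀ a b, F.Adj a b → H.Adj (f a) (f b)) (e s : ℕ)
    (he : F.edgeSet.ncard = e) (hs : (bd H (pr F f).1).card = e + s) :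
    (nb H (pr F f).1).card ≤ s := by
  classical
  -- the vertex set and the edge set of the copy
  have hτ : (pr F f).1 = (Finset.univ : Finset (Fin v)).image f := by
    unfold pr
    congr 1
  have hE : (pr F f).2 = F.edgeFinset.image (Sym2.map f) := by
    unfold pr
    congr 1
  have hEcard : (pr F f).2.card = e := by
    rw [hE, Finset.card_image_of_injective _ (Sym2.map.injective hf), ← he,
      Set.ncard_eq_toFinset_card' F.edgeSet]
    rfl
  -- the copy's edges meet its vertex set
  have hEsub : (pr F f).2 ⊆ bd H (pr F f).1 := by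
    intro z hz
    rw [hE, Finset.mem_image] at hz
    obtain ⟨w, hw, rfl⟩ := hz
    induction w using Sym2.ind with
    | _ a b =>
      have hab : F.Adj a b := by
        rw [SimpleGraph.mem_edgeFinset] at hw
        exact hw
      unfold bd
      rw [Finset.mem_filter]
      refine ⟨?_, f a, ?_, ?_⟩
      · rw [SimpleGraph.mem_edgeFinset, Sym2.map_mk]
        exact hhom a b hab
      · rw [hτ]
        exact Finset.mem_image_of_mem f (Finset.mem_univ a)
      · rw [Sym2.map_mk]
        exact Sym2.mem_mk_left _ _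
  have hdiff : (bd H (pr F f).1 \ (pr F f).2).card = s := by
    rw [Finset.card_sdiff_of_subset hEsub, hs, hEcard]
    omega
  rw [← hdiff]
  -- choose a neighbour inside for every outside neighbour
  have hnb : ∀ b ∈ nb H (pr F f).1, b ∉ (pr F f).1 ∧ ∃ a ∈ (pr F f).1, H.Adj a b := by
    intro b hb
    unfold nb at hb
    rw [Finset.mem_filter] at hb
    exact hb.2
  let g : Fin n → Sym2 (Fin n) := fun b =>
    if h : ∃ a ∈ (pr F f).1, H.Adj a b then s(h.choose, b) else s(b, b)
  have hg : ∀ b ∈ nb H (pr F f).1, ∃ a ∈ (pr F f).1, H.Adj a b ∧ g b = s(a, b) := by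
    intro b hb
    have h := (hnb b hb).2
    refine ⟨h.choose, h.choose_spec.1, h.choose_spec.2, ?_⟩
    show (if h : ∃ a ∈ (pr F f).1, H.Adj a b then s(h.choose, b) else s(b, b)) = _
    rw [dif_pos h]
  refine Finset.card_le_card_of_injOn g ?_ ?_
  · intro b hb
    obtain ⟨a, ha, hab, hgb⟩ := hg b hb
    have hbτ := (hnb b hb).1
    rw [Finset.mem_coe, Finset.mem_sdiff]
    refine ⟨?_, ?_⟩
    · unfold bd
      rw [Finset.mem_filter, hgb]
      refine ⟨?_, a, ha, Sym2.mem_mk_left _ _⟩
      rw [SimpleGraph.mem_edgeFinset]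
      exact hab
    · intro hmem
      rw [hE, Finset.mem_image] at hmem
      obtain ⟨w, _, hw⟩ := hmem
      have hbw : b ∈ Sym2.map f w := by
        rw [hw, hgb]
        exact Sym2.mem_mk_right _ _
      rw [Sym2.mem_map] at hbw
      obtain ⟨c, _, hc⟩ := hbw
      apply hbτ
      rw [hτ, ← hc]
      exact Finset.mem_image_of_mem f (Finset.mem_univ c)
  · intro b hb b' hb' hgg
    rw [Finset.mem_coe] at hb hb'
    obtain ⟨a, ha, hab, hgb⟩ := hg b hb
    obtain ⟨a', ha', hab', hgb'⟩ := hg b' hb'
    have hbτ := (hnb b hb).1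
    rw [hgb, hgb'] at hgg
    have hmem : b ∈ s(a', b') := by
      rw [← hgg]
      exact Sym2.mem_mk_right _ _
    rw [Sym2.mem_iff] at hmem
    rcases hmem with h | h
    · exact absurd (h ▸ ha') hbτ
    · exact h

end Vale.Agent.Helper8.KK
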