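import Vale.Agent.Lead.KTVLiteralDefs
import Vale.Agent.Helper13.KTVLiteralPM
import Vale.Agent.Helper13.SwitchDefs

/-!
Piece L3 of the literal form of the switch chain of P335: a step of the literal chain that
moves is a switch, and every switch is a step of the literal chain for some 4-element vertex
set and some ordered pair of distinct perfect matchings on it.
-/

namespace Vale.Agent.Helper16.KTVLiteralStep

open Vale.Agent.Lead.KTVLiteral Vale.Agent.Helper13.Switch Vale.Agent.Helper13.KTVLiteralPM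

variable {n : ℕ}

/-- With the pairings `{ab, ce}` and `{ac, be}`, an allowed step is the switch graph. -/
theorem step_eq_switchGraph (G : SimpleGraph (Fin n)) (a b c e : Fin n)
    (h : Allowed G a b c e) :
    step G {s(a, b), s(c, e)} {s(a, c), s(b, e)} = switchGraph G a b c e := by
  obtain ⟨h1, h2, h3, h4⟩ := h
  have hcond : (∀ f ∈ ({s(a, b), s(c, e)} : Finset (Sym2 (Fin n))), f ∈ G.edgeSet) ∧
      (∀ f ∈ ({s(a, c), s(b, e)} : Finset (Sym2 (Fin n))), f ∉ G.edgeSet) := by
    refine ⟨?_, ?_⟩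
    · intro f hf
      simp only [Finset.mem_insert, Finset.mem_singleton] at hf
      rcases hf with rfl | rfl
      · exact (SimpleGraph.mem_edgeSet G).mpr h1
      · exact (SimpleGraph.mem_edgeSet G).mpr h2
    · intro f hf
      simp only [Finset.mem_insert, Finset.mem_singleton] at hf
      rcases hf with rfl | rfl
      · exact fun hh => h3 ((SimpleGraph.mem_edgeSet G).mp hh)
      · exact fun hh => h4 ((SimpleGraph.mem_edgeSet G).mp hh)
  unfold step
  rw [if_pos hcond]
  ext x y
  simp only [switchGraph, SimpleGraph.fromEdgeSet_adj, SimpleGraph.sup_adj,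
    SimpleGraph.deleteEdges_adj, Set.mem_union, Set.mem_sdiff, SimpleGraph.mem_edgeSet,
    Finset.coe_insert, Finset.coe_singleton, Set.mem_insert_iff, Set.mem_singleton_iff]
  constructor
  · rintro ⟨(⟨hadj, hnot⟩ | hmem), hxy⟩
    · exact Or.inl ⟨hadj, hnot⟩
    · exact Or.inr ⟨hmem, hxy⟩
  · rintro (⟨hadj, hnot⟩ | ⟨hmem, hxy⟩)
    · exact ⟨Or.inl ⟨hadj, hnot⟩, hadj.ne⟩
    · exact ⟨Or.inr hmem, hxy⟩

/-- With the pairings `{ab, ce}` and `{ac, be}`, a step that moves was allowed. -/
theorem allowed_of_step_ne (G : SimpleGraph (Fin n)) (a b c e : Fin n)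
    (h : step G {s(a, b), s(c, e)} {s(a, c), s(b, e)} ≠ G) : Allowed G a b c e := by
  by_contra hA
  apply h
  unfold step
  rw [if_neg]
  rintro ⟨hp, hq⟩
  apply hA
  refine ⟨?_, ?_, ?_, ?_⟩
  · exact (SimpleGraph.mem_edgeSet G).mp (hp _ (by simp))
  · exact (SimpleGraph.mem_edgeSet G).mp (hp _ (by simp))
  · exact fun hh => hq _ (by simp) ((SimpleGraph.mem_edgeSet G).mpr hh)
  · exact fun hh => hq _ (by simp) ((SimpleGraph.mem_edgeSet G).mpr hh)

/-- A moving step between the pairings `{ab, ce}` and `{ac, be}` of four distinct vertices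
is a switch. -/
theorem isSwitch_of_shape (G : SimpleGraph (Fin n)) {a b c e : Fin n}
    (hab : a ≠ b) (hac : a ≠ c) (hae : a ≠ e) (hbc : b ≠ c) (hbe : b ≠ e) (hce : c ≠ e)
    {F F' : Finset (Sym2 (Fin n))} (hF : F = {s(a, b), s(c, e)})
    (hF' : F' = {s(a, c), s(b, e)}) (hmove : step G F F' ≠ G) :
    IsSwitch G (step G F F') := by
  subst hF hF'
  have hA := allowed_of_step_ne G a b c e hmove
  exact ⟨a, b, c, e, hab, hac, hae, hbc, hbe, hce, hA, step_eq_switchGraph G a b c e hA⟩

/-- [L3a] A step of the literal chain that moves is a switch. -/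
theorem step_isSwitch {S : Finset (Fin n)} (hS : S.card = 4)
    {F F' : Finset (Sym2 (Fin n))} (hF : PM S F) (hF' : PM S F') (hne : F ≠ F')
    (G : SimpleGraph (Fin n)) (hmove : step G F F' ≠ G) : IsSwitch G (step G F F') := by
  obtain ⟨a, b, c, e, hab, hac, hae, hbc, hbe, hce, hSeq⟩ := Finset.card_eq_four.mp hS
  have hS2 : S = {a, c, b, e} := by
    rw [hSeq]; ext v; simp only [Finset.mem_insert, Finset.mem_singleton]; tauto
  have hS3 : S = {a, e, b, c} := by
    rw [hSeq]; ext v; simp only [Finset.mem_insert, Finset.mem_singleton]; tauto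
  have sw : ∀ x y : Fin n, s(x, y) = s(y, x) := fun x y => Sym2.eq_swap
  rcases (pm_iff hSeq hab hac hae hbc hbe hce F).mp hF with h1 | h1 | h1 <;>
    rcases (pm_iff hSeq hab hac hae hbc hbe hce F').mp hF' with h2 | h2 | h2
  · exact absurd (h1.trans h2.symm) hne
  · -- ({ab, ce}, {ac, be}) : tuple (a, b, c, e)
    exact isSwitch_of_shape G hab hac hae hbc hbe hce h1 h2 hmove
  · -- ({ab, ce}, {ae, bc}) : tuple (a, b, e, c)
    refine isSwitch_of_shape G hab hae hac hbe hbc hce.symm (h1.trans ?_) h2 hmove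
    rw [sw c e]
  · -- ({ac, be}, {ab, ce}) : tuple (a, c, b, e)
    exact isSwitch_of_shape G hac hab hae hbc.symm hce hbe h1 h2 hmove
  · exact absurd (h1.trans h2.symm) hne
  · -- ({ac, be}, {ae, bc}) : tuple (a, c, e, b)
    refine isSwitch_of_shape G hac hae hab hce hbc.symm hbe.symm (h1.trans ?_) (h2.trans ?_)
      hmove
    · rw [sw b e]
    · rw [sw b c]
  · -- ({ae, bc}, {ab, ce}) : tuple (a, e, b, c)
    refine isSwitch_of_shape G hae hab hac hbe.symm hce.symm hbc h1 (h2.trans ?_) hmove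
    rw [sw c e]
  · -- ({ae, bc}, {ac, be}) : tuple (a, e, c, b)
    refine isSwitch_of_shape G hae hac hab hce.symm hbe.symm hbc.symm (h1.trans ?_)
      (h2.trans ?_) hmove
    · rw [sw b c]
    · rw [sw b e]
  · exact absurd (h1.trans h2.symm) hne

/-- [L3b] Every switch is a step of the literal chain, for some 4-element vertex set and
some ordered pair of distinct perfect matchings of the complete graph on it. -/
theorem isSwitch_step (G G' : SimpleGraph (Fin n)) (h : IsSwitch G G') :
    ∃ (S : Finset (Fin n)) (F F' : Finset (Sym2 (Fin n))),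
      S.card = 4 ∧ PM S F ∧ PM S F' ∧ F ≠ F' ∧ step G F F' = G' := by
  obtain ⟨a, b, c, e, hab, hac, hae, hbc, hbe, hce, hA, rfl⟩ := h
  have hS2 : ({a, b, c, e} : Finset (Fin n)) = {a, c, b, e} := by
    ext v; simp only [Finset.mem_insert, Finset.mem_singleton]; tauto
  refine ⟨{a, b, c, e}, {s(a, b), s(c, e)}, {s(a, c), s(b, e)}, ?_, ?_, ?_, ?_, ?_⟩
  · exact Finset.card_eq_four.mpr ⟨a, b, c, e, hab, hac, hae, hbc, hbe, hce, rfl⟩
  · exact pm_mk rfl hab hac hae hbc hbe hce
  · exact pm_mk hS2 hac hab hae hbc.symm hce hbe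
  · intro hEq
    have hmem : s(a, b) ∈ ({s(a, c), s(b, e)} : Finset (Sym2 (Fin n))) := by
      rw [← hEq]; simp
    simp only [Finset.mem_insert, Finset.mem_singleton, Sym2.eq_iff] at hmem
    rcases hmem with (⟨-, h⟩ | ⟨h, -⟩) | (⟨h, -⟩ | ⟨h, -⟩)
    · exact hbc h
    · exact hac h
    · exact hab h
    · exact hae h
  · exact step_eq_switchGraph G a b c e hA

end Vale.Agent.Helper16.KTVLiteralStep
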