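import Vale.Agent.Helper22.PettyPlanar

/-!
Affine invariance of the Petty ratio in the sweep model of `Vale.Agent.Helper22.Petty`:
`pettyRatio (T '' K) = pettyRatio K` for an invertible linear map `T`, and
`pettyRatio ((· + a) '' K) = pettyRatio K`.
-/

namespace Vale.Agent.Helper16.PettyAffine

open MeasureTheory Vale.Agent.Helper22
open scoped Pointwise

noncomputable section

variable {ι : Type*} [Fintype ι]

omit [Fintype ι] in
lemma sweep_image {κ : Type*} (T : (ι → ℝ) ≃ₗ[ℝ] (κ → ℝ)) (K : Set (ι → ℝ)) (u : ι → ℝ) :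
    sweep (T '' K) (T u) = T '' sweep K u := by
  ext x
  constructor
  · rintro ⟨s, hs, y, hy, hxy⟩
    refine ⟨y + s • u, ⟨s, hs, ?_⟩, ?_⟩
    · simpa using hy
    · rw [map_add, map_smul, hxy]
      abel
  · rintro ⟨z, ⟨s, hs, hz⟩, rfl⟩
    refine ⟨s, hs, z - s • u, hz, ?_⟩
    simp

lemma vol_image (T : (ι → ℝ) ≃ₗ[ℝ] (ι → ℝ)) (S : Set (ι → ℝ)) :
    vol (T '' S) = |LinearMap.det (T : (ι → ℝ) →ₗ[ℝ] (ι → ℝ))| * vol S := by
  unfold vol
  have h := Measure.addHaar_image_linearMap (volume : Measure (ι → ℝ))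
    (T : (ι → ℝ) →ₗ[ℝ] (ι → ℝ)) S
  rw [LinearEquiv.coe_coe] at h
  rw [h, ENNReal.toReal_mul, ENNReal.toReal_ofReal (abs_nonneg _)]

lemma shadow_image (T : (ι → ℝ) ≃ₗ[ℝ] (ι → ℝ)) (K : Set (ι → ℝ)) (u : ι → ℝ) :
    shadow (T '' K) (T u)
      = |LinearMap.det (T : (ι → ℝ) →ₗ[ℝ] (ι → ℝ))| * shadow K u := by
  unfold shadow
  rw [sweep_image, vol_image, vol_image]
  ring

omit [Fintype ι] in
lemma det_ne_zero (T : (ι → ℝ) ≃ₗ[ℝ] (ι → ℝ)) :
    LinearMap.det (T : (ι → ℝ) →ₗ[ℝ] (ι → ℝ)) ≠ 0 :=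
  (LinearEquiv.isUnit_det' T).ne_zero

/-- The map `x ↦ d⁻¹ • Tᵀ x` pulling `Π (T K)` back to `Π K`. -/
def pull [DecidableEq ι] (T : (ι → ℝ) ≃ₗ[ℝ] (ι → ℝ)) : (ι → ℝ) →ₗ[ℝ] (ι → ℝ) :=
  (|LinearMap.det (T : (ι → ℝ) →ₗ[ℝ] (ι → ℝ))|)⁻¹ •
    Matrix.toLin' (LinearMap.toMatrix' (T : (ι → ℝ) →ₗ[ℝ] (ι → ℝ))).transpose

lemma sum_mul_apply [DecidableEq ι] (T : (ι → ℝ) ≃ₗ[ℝ] (ι → ℝ)) (x u : ι → ℝ) :
    ∑ i, x i * (T u) i
      = ∑ i, (Matrix.toLin' (LinearMap.toMatrix' (T : (ι → ℝ) →ₗ[ℝ] (ι → ℝ))).transpose x) i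
          * u i := by
  have h1 : T u = (LinearMap.toMatrix' (T : (ι → ℝ) →ₗ[ℝ] (ι → ℝ))).mulVec u := by
    rw [← Matrix.toLin'_apply, Matrix.toLin'_toMatrix']
    rfl
  have h2 : ∀ a b : ι → ℝ, ∑ i, a i * b i = dotProduct a b := fun a b => rfl
  rw [h2, h2, h1, Matrix.toLin'_apply, Matrix.dotProduct_mulVec, Matrix.mulVec_transpose]

lemma projBody_image [DecidableEq ι] (T : (ι → ℝ) ≃ₗ[ℝ] (ι → ℝ)) (K : Set (ι → ℝ)) :
    projBody (T '' K) = (pull T) ⁻¹' projBody K := by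
  have hd : 0 < |LinearMap.det (T : (ι → ℝ) →ₗ[ℝ] (ι → ℝ))| := abs_pos.mpr (det_ne_zero T)
  ext x
  simp only [projBody, Set.mem_ofPred_eq, Set.mem_preimage]
  constructor
  · intro h u
    have h1 := h (T u)
    rw [shadow_image, sum_mul_apply] at h1
    simp only [pull, LinearMap.smul_apply, Pi.smul_apply, smul_eq_mul]
    rw [← Finset.sum_congr rfl (fun i _ => (mul_assoc _ _ _).symm), ← Finset.mul_sum,
      inv_mul_le_iff₀ hd]
    · exact h1
  · intro h w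
    obtain ⟨u, rfl⟩ := T.surjective w
    have h1 := h u
    simp only [pull, LinearMap.smul_apply, Pi.smul_apply, smul_eq_mul] at h1
    rw [← Finset.sum_congr rfl (fun i _ => (mul_assoc _ _ _).symm), ← Finset.mul_sum,
      inv_mul_le_iff₀ hd] at h1
    rw [shadow_image, sum_mul_apply]
    exact h1

lemma det_pull [DecidableEq ι] (T : (ι → ℝ) ≃ₗ[ℝ] (ι → ℝ)) :
    LinearMap.det (pull T)
      = (|LinearMap.det (T : (ι → ℝ) →ₗ[ℝ] (ι → ℝ))|)⁻¹ ^ Fintype.card ι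
        * LinearMap.det (T : (ι → ℝ) →ₗ[ℝ] (ι → ℝ)) := by
  unfold pull
  rw [LinearMap.det_smul, Module.finrank_fintype_fun_eq_card, LinearMap.det_toLin',
    Matrix.det_transpose, LinearMap.det_toMatrix']

lemma vol_projBody_image [Nonempty ι] (T : (ι → ℝ) ≃ₗ[ℝ] (ι → ℝ)) (K : Set (ι → ℝ)) :
    vol (projBody (T '' K))
      = |LinearMap.det (T : (ι → ℝ) →ₗ[ℝ] (ι → ℝ))| ^ (Fintype.card ι - 1)
        * vol (projBody K) := by
  classical
  have hd : 0 < |LinearMap.det (T : (ι → ℝ) →ₗ[ℝ] (ι → ℝ))| := abs_pos.mpr (det_ne_zero T)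
  obtain ⟨m, hm⟩ : ∃ m, Fintype.card ι = m + 1 :=
    Nat.exists_eq_succ_of_ne_zero Fintype.card_ne_zero
  have hdet : LinearMap.det (pull T) ≠ 0 := by
    rw [det_pull]
    exact mul_ne_zero (pow_ne_zero _ (inv_ne_zero hd.ne')) (det_ne_zero T)
  rw [projBody_image]
  unfold vol
  rw [Measure.addHaar_preimage_linearMap _ hdet, ENNReal.toReal_mul,
    ENNReal.toReal_ofReal (abs_nonneg _)]
  congr 1
  rw [det_pull, hm, Nat.add_sub_cancel, abs_inv, abs_mul, abs_pow, abs_inv, abs_abs]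
  have hd' : |LinearMap.det (T : (ι → ℝ) →ₗ[ℝ] (ι → ℝ))| ≠ 0 := hd.ne'
  generalize |LinearMap.det (T : (ι → ℝ) →ₗ[ℝ] (ι → ℝ))| = d at hd'
  rw [inv_pow, pow_succ]
  field_simp

theorem pettyRatio_image [Nonempty ι] (T : (ι → ℝ) ≃ₗ[ℝ] (ι → ℝ)) (K : Set (ι → ℝ)) :
    pettyRatio (T '' K) = pettyRatio K := by
  have hd : 0 < |LinearMap.det (T : (ι → ℝ) →ₗ[ℝ] (ι → ℝ))| := abs_pos.mpr (det_ne_zero T)
  unfold pettyRatio
  rw [vol_projBody_image, vol_image, mul_pow]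
  exact mul_div_mul_left _ _ (pow_ne_zero _ hd.ne')

/-! ### Translations -/

omit [Fintype ι] in
lemma sweep_translate (a : ι → ℝ) (K : Set (ι → ℝ)) (u : ι → ℝ) :
    sweep ((fun x => x + a) '' K) u = (fun x => x + a) '' sweep K u := by
  ext x
  constructor
  · rintro ⟨s, hs, y, hy, hxy⟩
    refine ⟨y + s • u, ⟨s, hs, ?_⟩, ?_⟩
    · simpa using hy
    · have : y + a = x - s • u := hxy
      show y + s • u + a = x
      rw [add_right_comm, this]
      abel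
  · rintro ⟨z, ⟨s, hs, hz⟩, rfl⟩
    refine ⟨s, hs, z - s • u, hz, ?_⟩
    show z - s • u + a = z + a - s • u
    abel

lemma vol_translate (a : ι → ℝ) (S : Set (ι → ℝ)) : vol ((fun x => x + a) '' S) = vol S := by
  unfold vol
  rw [Set.image_add_right, measure_preimage_add_right]

lemma shadow_translate (a : ι → ℝ) (K : Set (ι → ℝ)) (u : ι → ℝ) :
    shadow ((fun x => x + a) '' K) u = shadow K u := by
  unfold shadow
  rw [sweep_translate, vol_translate, vol_translate]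

lemma projBody_translate (a : ι → ℝ) (K : Set (ι → ℝ)) :
    projBody ((fun x => x + a) '' K) = projBody K := by
  unfold projBody
  simp only [shadow_translate]

theorem pettyRatio_translate (a : ι → ℝ) (K : Set (ι → ℝ)) :
    pettyRatio ((fun x => x + a) '' K) = pettyRatio K := by
  unfold pettyRatio
  rw [projBody_translate, vol_translate]

end

end Vale.Agent.Helper16.PettyAffine
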