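import Mathlib

/-!
The conjectured minimum `c_n = κ_{n-1}^n κ_n^{2-n}` of the Petty ratio (`κ_m` the volume of the
Euclidean unit ball of `ℝ^m`) is submultiplicative: `c_{a+b} ≤ c_a c_b` for `a, b ≥ 1`, strictly
when `a + b ≥ 3`.  The proof writes `κ_{m+1} = W_{m+1} κ_m` with the Wallis integrals
`W_m = ∫_0^π sin^m`, so that `c_{n+1} / c_n = W_n^n / W_{n+1}^{n-1}`, and this ratio is
non-increasing in `n` because `m ↦ W_m` is log-convex (Cauchy–Schwarz).
-/

namespace Vale.Agent.Helper16.PettyConst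

open MeasureTheory Real

noncomputable section

/-- `κ_m = π^(m/2) / Γ(m/2 + 1)`, the volume of the Euclidean unit ball of `ℝ^m`
(see `ballVol_eq_volume`). -/
def ballVol (m : ℕ) : ℝ := √π ^ m / Real.Gamma ((m : ℝ) / 2 + 1)

/-- The value `κ_{n-1}^n κ_n^{2-n}` of the Petty ratio on ellipsoids of `ℝ^n` (`n ≥ 1`), the
conjectured minimum in Petty's conjecture. -/
def pettyConst (n : ℕ) : ℝ := ballVol (n - 1) ^ n * ballVol n ^ (2 - (n : ℤ))

/-- The Wallis integral `∫_0^π sin^m`. -/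
def W (m : ℕ) : ℝ := ∫ x in (0:ℝ)..π, sin x ^ m

lemma W_pos (m : ℕ) : 0 < W m := integral_sin_pow_pos m

lemma W_add_two (m : ℕ) : W (m + 2) = ((m:ℝ) + 1) / ((m:ℝ) + 2) * W m := by
  unfold W
  rw [integral_sin_pow]
  simp

lemma W_zero : W 0 = π := by
  simp [W]

lemma W_one : W 1 = 2 := by
  simp [W]
  norm_num

lemma W_two : W 2 = π / 2 := by
  have h := W_add_two 0
  rw [W_zero] at h
  simp only [zero_add, Nat.cast_zero] at h
  rw [h]
  ring

lemma W_three : W 3 = 4 / 3 := by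
  have h := W_add_two 1
  rw [W_one] at h
  simp only [Nat.cast_one] at h
  have e : (1 + 2 : ℕ) = 3 := rfl
  rw [e] at h
  rw [h]
  norm_num

/-- Log-convexity of the Wallis integrals. -/
lemma W_logconvex (m : ℕ) : W (m + 1) ^ 2 ≤ W m * W (m + 2) := by
  have key : ∀ t : ℝ, 0 ≤ W (m + 2) * (t * t) + (2 * W (m + 1)) * t + W m := by
    intro t
    have h0 : 0 ≤ ∫ x in (0:ℝ)..π, sin x ^ m * (t * sin x + 1) ^ 2 := by
      apply intervalIntegral.integral_nonneg pi_pos.le
      intro x hx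
      exact mul_nonneg (pow_nonneg (sin_nonneg_of_mem_Icc hx) _) (sq_nonneg _)
    have h1 : (∫ x in (0:ℝ)..π, sin x ^ m * (t * sin x + 1) ^ 2)
        = W (m + 2) * (t * t) + (2 * W (m + 1)) * t + W m := by
      have e : ∀ x : ℝ, sin x ^ m * (t * sin x + 1) ^ 2
          = t ^ 2 * sin x ^ (m + 2) + (2 * t) * sin x ^ (m + 1) + sin x ^ m := by
        intro x
        ring
      simp_rw [e]
      rw [intervalIntegral.integral_add, intervalIntegral.integral_add,
        intervalIntegral.integral_const_mul, intervalIntegral.integral_const_mul]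
      · unfold W
        ring
      all_goals (apply Continuous.intervalIntegrable; fun_prop)
    linarith
  have h := discrim_le_zero key
  unfold discrim at h
  nlinarith

lemma ballVol_pos (m : ℕ) : 0 < ballVol m := by
  unfold ballVol
  have h : 0 < Real.Gamma ((m : ℝ) / 2 + 1) := Real.Gamma_pos_of_pos (by positivity)
  positivity

lemma ballVol_zero : ballVol 0 = 1 := by
  simp [ballVol]

lemma ballVol_one : ballVol 1 = 2 := by
  unfold ballVol
  have h : Real.Gamma ((1:ℝ) / 2 + 1) = 1 / 2 * √π := by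
    rw [Real.Gamma_add_one (by norm_num), Real.Gamma_one_half_eq]
  have hs : 0 < √π := Real.sqrt_pos.mpr pi_pos
  simp only [Nat.cast_one, pow_one]
  rw [h]
  field_simp

lemma ballVol_add_two (m : ℕ) : ballVol (m + 2) = 2 * π / ((m:ℝ) + 2) * ballVol m := by
  unfold ballVol
  have hG : 0 < Real.Gamma ((m : ℝ) / 2 + 1) := Real.Gamma_pos_of_pos (by positivity)
  have e : (((m + 2 : ℕ) : ℝ)) / 2 + 1 = ((m : ℝ) / 2 + 1) + 1 := by
    push_cast
    ring
  have hm : (m : ℝ) / 2 + 1 ≠ 0 := by positivity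
  have hm2 : (m : ℝ) + 2 ≠ 0 := by positivity
  rw [e, Real.Gamma_add_one hm, pow_add, Real.sq_sqrt pi_pos.le]
  field_simp

lemma ballVol_two : ballVol 2 = π := by
  have h := ballVol_add_two 0
  rw [ballVol_zero] at h
  simp only [zero_add, Nat.cast_zero] at h
  rw [h]
  ring

/-- `κ_{m+1} = W_{m+1} κ_m`. -/
lemma ballVol_succ : ∀ m : ℕ, ballVol (m + 1) = W (m + 1) * ballVol m
  | 0 => by rw [ballVol_one, W_one, ballVol_zero]; norm_num
  | 1 => by
    have e : (1 + 1 : ℕ) = 2 := rfl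
    rw [e, ballVol_two, W_two, ballVol_one]
    ring
  | (m + 2) => by
    have ih := ballVol_succ m
    have e1 : m + 2 + 1 = (m + 1) + 2 := by ring
    rw [e1, ballVol_add_two (m + 1), W_add_two (m + 1), ih, ballVol_add_two m]
    have h1 : (m : ℝ) + 2 ≠ 0 := by positivity
    have h2 : ((m + 1 : ℕ) : ℝ) + 2 ≠ 0 := by positivity
    push_cast
    field_simp
    ring

/-- `c_{k+1} = κ_{k+1}^2 / W_{k+1}^{k+1}`. -/
lemma pettyConst_succ_eq (k : ℕ) :
    pettyConst (k + 1) = ballVol (k + 1) ^ 2 / W (k + 1) ^ (k + 1) := by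
  unfold pettyConst
  have hB : ballVol (k + 1) ≠ 0 := (ballVol_pos _).ne'
  have hb : ballVol k ≠ 0 := (ballVol_pos _).ne'
  have hW : W (k + 1) ≠ 0 := (W_pos _).ne'
  have e : ballVol (k + 1) ^ (2 - ((k + 1 : ℕ) : ℤ))
      = ballVol (k + 1) ^ 2 / ballVol (k + 1) ^ (k + 1) := by
    rw [zpow_sub₀ hB, zpow_natCast]
    norm_cast
  rw [e, Nat.add_sub_cancel]
  rw [eq_div_iff (pow_ne_zero _ hW)]
  have h := ballVol_succ k
  have e2 : ballVol (k + 1) ^ (k + 1) = W (k + 1) ^ (k + 1) * ballVol k ^ (k + 1) := by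
    rw [h, mul_pow]
  rw [e2]
  field_simp

/-- The ratio `c_{k+2} / c_{k+1}`. -/
def ratio (k : ℕ) : ℝ := W (k + 1) ^ (k + 1) / W (k + 2) ^ k

lemma ratio_pos (k : ℕ) : 0 < ratio k :=
  div_pos (pow_pos (W_pos _) _) (pow_pos (W_pos _) _)

lemma pettyConst_succ_succ (k : ℕ) : pettyConst (k + 2) = ratio k * pettyConst (k + 1) := by
  have e : k + 2 = (k + 1) + 1 := rfl
  rw [e, pettyConst_succ_eq (k + 1), pettyConst_succ_eq k, ballVol_succ (k + 1)]
  unfold ratio
  have hW1 : W (k + 1) ≠ 0 := (W_pos _).ne'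
  have hW2 : W (k + 1 + 1) ≠ 0 := (W_pos _).ne'
  have e3 : W (k + 1 + 1) ^ (k + 1 + 1) = W (k + 1 + 1) ^ k * W (k + 1 + 1) ^ 2 := by
    rw [← pow_add]
  rw [e3]
  field_simp

lemma pettyConst_pos (k : ℕ) : 0 < pettyConst (k + 1) := by
  rw [pettyConst_succ_eq]
  exact div_pos (pow_pos (ballVol_pos _) _) (pow_pos (W_pos _) _)

lemma pettyConst_one : pettyConst 1 = 2 := by
  have h := pettyConst_succ_eq 0
  simp only [zero_add] at h
  rw [h, ballVol_one, W_one]
  norm_num

lemma pettyConst_two : pettyConst 2 = 4 := by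
  have h := pettyConst_succ_eq 1
  have e : (1 + 1 : ℕ) = 2 := rfl
  rw [e] at h
  rw [h, ballVol_two, W_two]
  have hp : π ≠ 0 := pi_pos.ne'
  field_simp
  norm_num

lemma ratio_succ_le (k : ℕ) : ratio (k + 1) ≤ ratio k := by
  unfold ratio
  have hW1 : 0 < W (k + 1) := W_pos _
  have hW2 : 0 < W (k + 2) := W_pos _
  have hW3 : 0 < W (k + 3) := W_pos _
  have e : k + 1 + 2 = k + 3 := rfl
  have e' : k + 1 + 1 = k + 2 := rfl
  rw [e, e', div_le_div_iff₀ (pow_pos hW3 _) (pow_pos hW2 _)]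
  have h := W_logconvex (k + 1)
  have e'' : k + 1 + 2 = k + 3 := rfl
  rw [e', e''] at h
  calc W (k + 2) ^ (k + 1 + 1) * W (k + 2) ^ k = (W (k + 2) ^ 2) ^ (k + 1) := by
        rw [← pow_add, ← pow_mul]
        congr 1
        ring
    _ ≤ (W (k + 1) * W (k + 3)) ^ (k + 1) := pow_le_pow_left₀ (by positivity) h _
    _ = W (k + 1) ^ (k + 1) * W (k + 3) ^ (k + 1) := mul_pow _ _ _

lemma ratio_antitone : Antitone ratio := antitone_nat_of_succ_le ratio_succ_le

lemma ratio_zero : ratio 0 = 2 := by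
  simp [ratio, W_one]

lemma ratio_one_lt : ratio 1 < 2 := by
  unfold ratio
  have e : (1 + 1 : ℕ) = 2 := rfl
  have e' : (1 + 2 : ℕ) = 3 := rfl
  rw [e, e', W_two, W_three]
  have hpi : π < 3.15 := Real.pi_lt_d2
  have hpi0 : 0 < π := pi_pos
  rw [div_lt_iff₀ (by norm_num)]
  nlinarith

/-- Submultiplicativity, shifted indices. -/
lemma pettyConst_shift_le (a b : ℕ) :
    pettyConst (a + b + 2) ≤ pettyConst (a + 1) * pettyConst (b + 1) := by
  induction b with
  | zero =>
    rw [add_zero, pettyConst_succ_succ, zero_add, pettyConst_one, mul_comm]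
    have h : ratio a ≤ 2 := ratio_zero ▸ ratio_antitone (Nat.zero_le a)
    exact mul_le_mul_of_nonneg_left h (pettyConst_pos a).le
  | succ b ih =>
    have e : a + (b + 1) + 2 = (a + b + 1) + 2 := by ring
    have e2 : a + b + 1 + 1 = a + b + 2 := rfl
    have e3 : b + 1 + 1 = b + 2 := rfl
    rw [e, pettyConst_succ_succ (a + b + 1), e2, e3, pettyConst_succ_succ b]
    have h : ratio (a + b + 1) ≤ ratio b := ratio_antitone (by omega)
    calc ratio (a + b + 1) * pettyConst (a + b + 2)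
        ≤ ratio (a + b + 1) * (pettyConst (a + 1) * pettyConst (b + 1)) :=
          mul_le_mul_of_nonneg_left ih (ratio_pos _).le
      _ ≤ ratio b * (pettyConst (a + 1) * pettyConst (b + 1)) :=
          mul_le_mul_of_nonneg_right h (mul_pos (pettyConst_pos a) (pettyConst_pos b)).le
      _ = pettyConst (a + 1) * (ratio b * pettyConst (b + 1)) := by ring

/-- Strict submultiplicativity when the first index is at least two, shifted indices. -/
lemma pettyConst_shift_lt (a b : ℕ) :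
    pettyConst (a + 1 + b + 2) < pettyConst (a + 2) * pettyConst (b + 1) := by
  induction b with
  | zero =>
    rw [add_zero, pettyConst_succ_succ, zero_add, pettyConst_one, mul_comm]
    have h : ratio (a + 1) < 2 :=
      lt_of_le_of_lt (ratio_antitone (by omega : 1 ≤ a + 1)) ratio_one_lt
    have e2 : a + 1 + 1 = a + 2 := rfl
    rw [e2]
    exact mul_lt_mul_of_pos_left h (pettyConst_pos (a + 1))
  | succ b ih =>
    have e : a + 1 + (b + 1) + 2 = (a + 1 + b + 1) + 2 := by ring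
    have e2 : a + 1 + b + 1 + 1 = a + 1 + b + 2 := rfl
    have e3 : b + 1 + 1 = b + 2 := rfl
    rw [e, pettyConst_succ_succ (a + 1 + b + 1), e2, e3, pettyConst_succ_succ b]
    have h : ratio (a + 1 + b + 1) ≤ ratio b := ratio_antitone (by omega)
    calc ratio (a + 1 + b + 1) * pettyConst (a + 1 + b + 2)
        < ratio (a + 1 + b + 1) * (pettyConst (a + 2) * pettyConst (b + 1)) :=
          mul_lt_mul_of_pos_left ih (ratio_pos _)
      _ ≤ ratio b * (pettyConst (a + 2) * pettyConst (b + 1)) :=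
          mul_le_mul_of_nonneg_right h
            (mul_pos (pettyConst_pos (a + 1)) (pettyConst_pos b)).le
      _ = pettyConst (a + 2) * (ratio b * pettyConst (b + 1)) := by ring

/-- `c_{a+b} ≤ c_a c_b` for `a, b ≥ 1`. -/
theorem pettyConst_add_le {a b : ℕ} (ha : 1 ≤ a) (hb : 1 ≤ b) :
    pettyConst (a + b) ≤ pettyConst a * pettyConst b := by
  obtain ⟨a', rfl⟩ : ∃ a', a = a' + 1 := ⟨a - 1, by omega⟩
  obtain ⟨b', rfl⟩ : ∃ b', b = b' + 1 := ⟨b - 1, by omega⟩
  have e : a' + 1 + (b' + 1) = a' + b' + 2 := by ring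
  rw [e]
  exact pettyConst_shift_le a' b'

/-- `c_{a+b} < c_a c_b` for `a, b ≥ 1` with `a + b ≥ 3`. -/
theorem pettyConst_add_lt {a b : ℕ} (ha : 1 ≤ a) (hb : 1 ≤ b) (h3 : 3 ≤ a + b) :
    pettyConst (a + b) < pettyConst a * pettyConst b := by
  rcases Nat.lt_or_ge a 2 with h | h
  · -- `a = 1`, `b ≥ 2`
    obtain ⟨a', rfl⟩ : ∃ a', a = a' + 1 := ⟨a - 1, by omega⟩
    obtain ⟨b', rfl⟩ : ∃ b', b = b' + 2 := ⟨b - 2, by omega⟩
    have e : a' + 1 + (b' + 2) = b' + 1 + a' + 2 := by ring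
    rw [e, mul_comm]
    exact pettyConst_shift_lt b' a'
  · obtain ⟨a', rfl⟩ : ∃ a', a = a' + 2 := ⟨a - 2, by omega⟩
    obtain ⟨b', rfl⟩ : ∃ b', b = b' + 1 := ⟨b - 1, by omega⟩
    have e : a' + 2 + (b' + 1) = a' + 1 + b' + 2 := by ring
    rw [e]
    exact pettyConst_shift_lt a' b'

/-- `ballVol (n + 1)` is the Lebesgue volume of the Euclidean unit ball of `ℝ^(n+1)`. -/
theorem ballVol_eq_volume (n : ℕ) :
    ballVol (n + 1)
      = (volume (Metric.ball (0 : EuclideanSpace ℝ (Fin (n + 1))) 1)).toReal := by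
  rw [EuclideanSpace.volume_ball]
  simp only [Fintype.card_fin, ENNReal.ofReal_one, one_pow, one_mul]
  rw [ENNReal.toReal_ofReal]
  · unfold ballVol
    push_cast
    rfl
  · have h : 0 < Real.Gamma (((n + 1 : ℕ) : ℝ) / 2 + 1) := Real.Gamma_pos_of_pos (by positivity)
    positivity

end

end Vale.Agent.Helper16.PettyConst
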