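import Vale.Agent.Helper16.PettyAffine
import Vale.Agent.Helper16.PettyConst

/-!
The Petty ratio of the Euclidean unit ball in the sweep model of `Vale.Agent.Helper22.Petty`:
`shadow B u = κ_{n-1} |u|`, `Π B = κ_{n-1} B`, and `pettyRatio B = κ_{n-1}^n κ_n^{2-n}`.
-/

namespace Vale.Agent.Helper16.PettyBall

open MeasureTheory Vale.Agent.Helper22 Vale.Agent.Helper16.PettyConst
  Vale.Agent.Helper16.PettyAffine
open scoped Pointwise ENNReal

noncomputable section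

/-- The Euclidean unit ball of `ℝ^ι`. -/
def eball (ι : Type*) [Fintype ι] : Set (ι → ℝ) := {x | ∑ i, x i ^ 2 ≤ 1}

variable {ι κ : Type*} [Fintype ι] [Fintype κ]

lemma isClosed_eball : IsClosed (eball ι) := by
  have h : Continuous fun x : ι → ℝ => ∑ i, x i ^ 2 := by fun_prop
  exact isClosed_le h continuous_const

lemma isCompact_eball : IsCompact (eball ι) := by
  refine IsCompact.of_isClosed_subset
    (isCompact_Icc (a := fun _ : ι => (-1:ℝ)) (b := fun _ => (1:ℝ))) isClosed_eball ?_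
  intro x hx
  have h : ∀ i, |x i| ≤ 1 := fun i => by
    have h1 : x i ^ 2 ≤ 1 :=
      le_trans (Finset.single_le_sum (f := fun i => x i ^ 2) (fun j _ => sq_nonneg (x j))
        (Finset.mem_univ i)) hx
    exact (sq_le_one_iff_abs_le_one _).mp h1
  exact ⟨fun i => (abs_le.mp (h i)).1, fun i => (abs_le.mp (h i)).2⟩

lemma convex_eball : Convex ℝ (eball ι) := by
  intro x hx y hy a b ha hb hab
  show ∑ i, (a • x + b • y) i ^ 2 ≤ 1
  have hx' : ∑ i, x i ^ 2 ≤ 1 := hx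
  have hy' : ∑ i, y i ^ 2 ≤ 1 := hy
  have h : ∀ i, (a • x + b • y) i ^ 2 ≤ a * x i ^ 2 + b * y i ^ 2 := by
    intro i
    simp only [Pi.add_apply, Pi.smul_apply, smul_eq_mul]
    have hb' : b = 1 - a := by linarith
    subst hb'
    nlinarith [mul_nonneg (mul_nonneg ha hb) (sq_nonneg (x i - y i))]
  calc ∑ i, (a • x + b • y) i ^ 2 ≤ ∑ i, (a * x i ^ 2 + b * y i ^ 2) :=
        Finset.sum_le_sum fun i _ => h i
    _ = a * ∑ i, x i ^ 2 + b * ∑ i, y i ^ 2 := by
        rw [Finset.sum_add_distrib, Finset.mul_sum, Finset.mul_sum]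
    _ ≤ a * 1 + b * 1 :=
        add_le_add (mul_le_mul_of_nonneg_left hx' ha) (mul_le_mul_of_nonneg_left hy' hb)
    _ = 1 := by linarith

lemma volume_eball_of_nonempty [Nonempty ι] :
    volume (eball ι) = ENNReal.ofReal (ballVol (Fintype.card ι)) := by
  have h := EuclideanSpace.volume_closedBall ι (0 : EuclideanSpace ℝ ι) 1
  rw [← (PiLp.volume_preserving_toLp ι).measure_preimage
    measurableSet_closedBall.nullMeasurableSet] at h
  have e : (WithLp.toLp 2 : (ι → ℝ) → EuclideanSpace ℝ ι) ⁻¹' Metric.closedBall 0 1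
      = eball ι := by
    ext x
    simp [EuclideanSpace.closedBall_zero_eq _ zero_le_one, eball]
  rw [e] at h
  rw [h]
  simp [ballVol]

lemma volume_eball_of_isEmpty [IsEmpty ι] : volume (eball ι) = 1 := by
  have e : eball ι = Set.univ := by
    ext x
    simp [eball]
  rw [e, Measure.volume_pi_eq_dirac]
  simp

lemma volume_eball : volume (eball ι) = ENNReal.ofReal (ballVol (Fintype.card ι)) := by
  rcases isEmpty_or_nonempty ι with h | h
  · rw [volume_eball_of_isEmpty, Fintype.card_eq_zero, ballVol_zero, ENNReal.ofReal_one]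
  · exact volume_eball_of_nonempty

lemma vol_eball : vol (eball ι) = ballVol (Fintype.card ι) := by
  unfold vol
  rw [volume_eball, ENNReal.toReal_ofReal (ballVol_pos _).le]

lemma vol_eball_pos : 0 < vol (eball ι) := by
  rw [vol_eball]
  exact ballVol_pos _

/-- The vector `t e`, `e` the coordinate vector of the distinguished coordinate of `Unit ⊕ κ`. -/
def axis (κ : Type*) (t : ℝ) : Unit ⊕ κ → ℝ := Sum.elim (fun _ => t) (fun _ => 0)

lemma mem_eball_sum (x : Unit → ℝ) (y : κ → ℝ) :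
    Sum.elim x y ∈ eball (Unit ⊕ κ) ↔ x () ^ 2 ≤ 1 - ∑ i, y i ^ 2 := by
  have h : ∑ j : Unit ⊕ κ, Sum.elim x y j ^ 2 = x () ^ 2 + ∑ i, y i ^ 2 := by
    rw [Fintype.sum_sum_type]
    simp
  show ∑ j : Unit ⊕ κ, Sum.elim x y j ^ 2 ≤ 1 ↔ _
  rw [h]
  constructor <;> intro h' <;> linarith

omit [Fintype κ] in
lemma elim_sub_axis (x : Unit → ℝ) (y : κ → ℝ) (s t : ℝ) :
    Sum.elim x y - s • axis κ t = Sum.elim (fun _ => x () - s * t) y := by
  funext j
  rcases j with j | j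
  · simp [axis]
  · simp [axis]

lemma slice_eball_of_mem {y : κ → ℝ} (hy : y ∈ eball κ) :
    {x : Unit → ℝ | Sum.elim x y ∈ eball (Unit ⊕ κ)}
      = {x : Unit → ℝ | x () ∈ Set.Icc (-√(1 - ∑ i, y i ^ 2)) (√(1 - ∑ i, y i ^ 2))} := by
  have hρ : 0 ≤ 1 - ∑ i, y i ^ 2 := by
    have : ∑ i, y i ^ 2 ≤ 1 := hy
    linarith
  ext x
  show Sum.elim x y ∈ eball (Unit ⊕ κ) ↔ _
  rw [mem_eball_sum, Real.sq_le hρ]
  rfl

lemma slice_eball_of_notMem {y : κ → ℝ} (hy : y ∉ eball κ) :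
    {x : Unit → ℝ | Sum.elim x y ∈ eball (Unit ⊕ κ)} = ∅ := by
  ext x
  show Sum.elim x y ∈ eball (Unit ⊕ κ) ↔ _
  rw [mem_eball_sum]
  simp only [Set.mem_empty_iff_false, iff_false, not_le]
  have : ¬ ∑ i, y i ^ 2 ≤ 1 := hy
  nlinarith [sq_nonneg (x ())]

lemma mem_sweep_eball_axis (x : Unit → ℝ) (y : κ → ℝ) (t : ℝ) :
    Sum.elim x y ∈ sweep (eball (Unit ⊕ κ)) (axis κ t)
      ↔ ∃ s ∈ Set.Icc (0:ℝ) 1, (x () - s * t) ^ 2 ≤ 1 - ∑ i, y i ^ 2 := by
  constructor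
  · rintro ⟨s, hs, h⟩
    rw [elim_sub_axis, mem_eball_sum] at h
    exact ⟨s, hs, h⟩
  · rintro ⟨s, hs, h⟩
    refine ⟨s, hs, ?_⟩
    rw [elim_sub_axis, mem_eball_sum]
    exact h

lemma slice_sweep_eball_of_mem {y : κ → ℝ} (hy : y ∈ eball κ) {t : ℝ} (ht : 0 ≤ t) :
    {x : Unit → ℝ | Sum.elim x y ∈ sweep (eball (Unit ⊕ κ)) (axis κ t)}
      = {x : Unit → ℝ | x () ∈ Set.Icc (-√(1 - ∑ i, y i ^ 2)) (√(1 - ∑ i, y i ^ 2) + t)} := by
  have hρ : 0 ≤ 1 - ∑ i, y i ^ 2 := by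
    have : ∑ i, y i ^ 2 ≤ 1 := hy
    linarith
  have hr : 0 ≤ √(1 - ∑ i, y i ^ 2) := Real.sqrt_nonneg _
  ext x
  show Sum.elim x y ∈ sweep (eball (Unit ⊕ κ)) (axis κ t) ↔ _
  rw [mem_sweep_eball_axis]
  constructor
  · rintro ⟨s, hs, h⟩
    rw [Real.sq_le hρ] at h
    have hst : 0 ≤ s * t := mul_nonneg hs.1 ht
    have hst' : s * t ≤ t := by
      have := mul_le_mul_of_nonneg_right hs.2 ht
      linarith
    exact ⟨by linarith [h.1], by linarith [h.2]⟩
  · rintro ⟨h1, h2⟩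
    by_cases hx : x () ≤ √(1 - ∑ i, y i ^ 2)
    · refine ⟨0, ⟨le_refl _, zero_le_one⟩, ?_⟩
      rw [Real.sq_le hρ]
      exact ⟨by linarith, by linarith⟩
    · have hx' : √(1 - ∑ i, y i ^ 2) < x () := not_le.mp hx
      have htpos : 0 < t := by linarith
      refine ⟨(x () - √(1 - ∑ i, y i ^ 2)) / t, ⟨?_, ?_⟩, ?_⟩
      · exact div_nonneg (by linarith) ht
      · rw [div_le_one htpos]
        linarith
      · rw [div_mul_cancel₀ _ htpos.ne', Real.sq_le hρ]
        exact ⟨by linarith, by linarith⟩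

lemma slice_sweep_eball_of_notMem {y : κ → ℝ} (hy : y ∉ eball κ) (t : ℝ) :
    {x : Unit → ℝ | Sum.elim x y ∈ sweep (eball (Unit ⊕ κ)) (axis κ t)} = ∅ := by
  ext x
  show Sum.elim x y ∈ sweep (eball (Unit ⊕ κ)) (axis κ t) ↔ _
  rw [mem_sweep_eball_axis]
  simp only [Set.mem_empty_iff_false, iff_false, not_exists, not_and, not_le]
  intro s _
  have : ¬ ∑ i, y i ^ 2 ≤ 1 := hy
  nlinarith [sq_nonneg (x () - s * t)]

lemma volume_sweep_eball_axis {t : ℝ} (ht : 0 ≤ t) :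
    volume (sweep (eball (Unit ⊕ κ)) (axis κ t))
      = volume (eball (Unit ⊕ κ)) + ENNReal.ofReal t * volume (eball κ) := by
  have hm1 : MeasurableSet (sweep (eball (Unit ⊕ κ)) (axis κ t)) :=
    (isCompact_sweep isCompact_eball _).isClosed.measurableSet
  have hm2 : MeasurableSet (eball (Unit ⊕ κ)) := isClosed_eball.measurableSet
  have hm3 : MeasurableSet (eball κ) := isClosed_eball.measurableSet
  rw [volume_eq_lintegral_slice hm1, volume_eq_lintegral_slice hm2]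
  have key : ∀ y : κ → ℝ,
      volume {x : Unit → ℝ | Sum.elim x y ∈ sweep (eball (Unit ⊕ κ)) (axis κ t)}
        = volume {x : Unit → ℝ | Sum.elim x y ∈ eball (Unit ⊕ κ)}
          + (eball κ).indicator (fun _ => ENNReal.ofReal t) y := by
    intro y
    by_cases hy : y ∈ eball κ
    · have hr : 0 ≤ √(1 - ∑ i, y i ^ 2) := Real.sqrt_nonneg _
      rw [slice_sweep_eball_of_mem hy ht, slice_eball_of_mem hy, volume_unit_Icc,
        volume_unit_Icc, Set.indicator_of_mem hy, ← ENNReal.ofReal_add (by linarith) ht]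
      congr 1
      ring
    · rw [slice_sweep_eball_of_notMem hy, slice_eball_of_notMem hy,
        Set.indicator_of_notMem hy]
      simp
  simp_rw [key]
  rw [lintegral_add_right _ (measurable_const.indicator hm3), lintegral_indicator_const hm3]

lemma shadow_eball_axis {t : ℝ} (ht : 0 ≤ t) :
    shadow (eball (Unit ⊕ κ)) (axis κ t) = t * vol (eball κ) := by
  unfold shadow vol
  rw [volume_sweep_eball_axis ht,
    ENNReal.toReal_add isCompact_eball.measure_lt_top.ne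
      (ENNReal.mul_ne_top ENNReal.ofReal_ne_top isCompact_eball.measure_lt_top.ne),
    ENNReal.toReal_mul, ENNReal.toReal_ofReal ht]
  ring

/-! ### Reflections -/

/-- The reflection in the hyperplane orthogonal to `w` (the identity if `w = 0`). -/
def hh (w : ι → ℝ) : (ι → ℝ) →ₗ[ℝ] (ι → ℝ) where
  toFun x := x - (2 * (x ⬝ᵥ w) / (w ⬝ᵥ w)) • w
  map_add' x y := by
    rw [add_dotProduct]
    ext i
    simp only [Pi.add_apply, Pi.sub_apply, Pi.smul_apply, smul_eq_mul]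
    ring
  map_smul' c x := by
    rw [smul_dotProduct]
    ext i
    simp only [Pi.smul_apply, Pi.sub_apply, smul_eq_mul, RingHom.id_apply]
    ring

lemma hh_apply (w x : ι → ℝ) : hh w x = x - (2 * (x ⬝ᵥ w) / (w ⬝ᵥ w)) • w := rfl

lemma hh_dot (w x : ι → ℝ) (hw : w ⬝ᵥ w ≠ 0) : hh w x ⬝ᵥ w = -(x ⬝ᵥ w) := by
  rw [hh_apply, sub_dotProduct, smul_dotProduct, smul_eq_mul]
  field_simp
  ring

lemma hh_invol (w : ι → ℝ) : Function.Involutive (hh w) := by
  intro x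
  by_cases hw : w ⬝ᵥ w = 0
  · simp [hh_apply, hw]
  · rw [hh_apply (x := hh w x), hh_dot w x hw, hh_apply]
    ext i
    simp only [Pi.sub_apply, Pi.smul_apply, smul_eq_mul]
    ring

lemma hh_norm (w x : ι → ℝ) : hh w x ⬝ᵥ hh w x = x ⬝ᵥ x := by
  by_cases hw : w ⬝ᵥ w = 0
  · simp [hh_apply, hw]
  · rw [hh_apply, sub_dotProduct, dotProduct_sub, dotProduct_sub, smul_dotProduct,
      dotProduct_smul, dotProduct_smul, smul_dotProduct, dotProduct_comm w x]
    simp only [smul_eq_mul]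
    field_simp
    ring

lemma hh_map (a u : ι → ℝ) (h : a ⬝ᵥ a = u ⬝ᵥ u) : hh (u - a) a = u := by
  by_cases hw : (u - a) ⬝ᵥ (u - a) = 0
  · have h0 : u - a = 0 := dotProduct_self_eq_zero.mp hw
    have : u = a := sub_eq_zero.mp h0
    subst this
    simp [hh_apply]
  · have e1 : (u - a) ⬝ᵥ (u - a) = 2 * (a ⬝ᵥ a) - 2 * (a ⬝ᵥ u) := by
      rw [sub_dotProduct, dotProduct_sub, dotProduct_sub, dotProduct_comm u a, ← h]
      ring
    have e2 : a ⬝ᵥ (u - a) = a ⬝ᵥ u - a ⬝ᵥ a := by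
      rw [dotProduct_sub]
    have hne : 2 * (a ⬝ᵥ a) - 2 * (a ⬝ᵥ u) ≠ 0 := by
      rw [← e1]
      exact hw
    rw [hh_apply, e1, e2]
    have e3 : 2 * (a ⬝ᵥ u - a ⬝ᵥ a) / (2 * (a ⬝ᵥ a) - 2 * (a ⬝ᵥ u)) = -1 := by
      rw [div_eq_iff hne]
      ring
    rw [e3]
    ext i
    simp

/-- The reflection as a linear equivalence. -/
def hhEquiv (w : ι → ℝ) : (ι → ℝ) ≃ₗ[ℝ] (ι → ℝ) := LinearEquiv.ofInvolutive (hh w) (hh_invol w)

lemma hhEquiv_apply (w x : ι → ℝ) : hhEquiv w x = hh w x := rfl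

lemma abs_det_hhEquiv (w : ι → ℝ) :
    |LinearMap.det ((hhEquiv w : (ι → ℝ) ≃ₗ[ℝ] (ι → ℝ)) : (ι → ℝ) →ₗ[ℝ] (ι → ℝ))| = 1 := by
  have e : ((hhEquiv w : (ι → ℝ) ≃ₗ[ℝ] (ι → ℝ)) : (ι → ℝ) →ₗ[ℝ] (ι → ℝ)) = hh w := by
    ext x
    rfl
  rw [e]
  have h1 : (hh w) ∘ₗ (hh w) = LinearMap.id := by
    ext x
    simp [hh_invol w x]
  have h2 : LinearMap.det (hh w) * LinearMap.det (hh w) = 1 := by
    rw [← LinearMap.det_comp, h1, LinearMap.det_id]
  have h3 : |LinearMap.det (hh w)| * |LinearMap.det (hh w)| = 1 := by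
    rw [← abs_mul, h2, abs_one]
  nlinarith [abs_nonneg (LinearMap.det (hh w))]

lemma sum_sq_eq_dot (x : ι → ℝ) : ∑ i, x i ^ 2 = x ⬝ᵥ x := by
  unfold dotProduct
  exact Finset.sum_congr rfl fun i _ => sq (x i)

lemma hhEquiv_image_eball (w : ι → ℝ) : (hhEquiv w) '' eball ι = eball ι := by
  have hmem : ∀ x : ι → ℝ, hh w x ∈ eball ι ↔ x ∈ eball ι := by
    intro x
    show ∑ i, hh w x i ^ 2 ≤ 1 ↔ ∑ i, x i ^ 2 ≤ 1
    rw [sum_sq_eq_dot, sum_sq_eq_dot, hh_norm]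
  ext x
  constructor
  · rintro ⟨y, hy, rfl⟩
    exact (hmem y).mpr hy
  · intro hx
    exact ⟨hh w x, (hmem x).mpr hx, hh_invol w x⟩

/-- The shadow of the Euclidean unit ball of `ℝ^(1+κ)`: `κ_{n-1} |u|`. -/
lemma shadow_eball (u : Unit ⊕ κ → ℝ) :
    shadow (eball (Unit ⊕ κ)) u = vol (eball κ) * √(∑ j, u j ^ 2) := by
  have ht : 0 ≤ √(∑ j, u j ^ 2) := Real.sqrt_nonneg _
  have hsum : 0 ≤ ∑ j, u j ^ 2 := Finset.sum_nonneg fun j _ => sq_nonneg _
  have ha : axis κ (√(∑ j, u j ^ 2)) ⬝ᵥ axis κ (√(∑ j, u j ^ 2)) = u ⬝ᵥ u := by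
    rw [← sum_sq_eq_dot, ← sum_sq_eq_dot, Fintype.sum_sum_type]
    simp only [axis, Sum.elim_inl, Sum.elim_inr, Finset.univ_unique, Finset.sum_singleton]
    rw [Real.sq_sqrt hsum]
    simp
  have hmap := hh_map _ _ ha
  have h := shadow_image (hhEquiv (u - axis κ (√(∑ j, u j ^ 2)))) (eball (Unit ⊕ κ))
    (axis κ (√(∑ j, u j ^ 2)))
  rw [hhEquiv_image_eball, hhEquiv_apply, hmap, abs_det_hhEquiv, one_mul,
    shadow_eball_axis ht] at h
  rw [h]
  ring

/-- The projection body of the Euclidean unit ball of `ℝ^(1+κ)` is `κ_{n-1}` times the ball. -/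
lemma projBody_eball :
    projBody (eball (Unit ⊕ κ)) = vol (eball κ) • eball (Unit ⊕ κ) := by
  have hs : 0 < vol (eball κ) := vol_eball_pos
  ext x
  rw [Set.mem_smul_set_iff_inv_smul_mem₀ hs.ne']
  have hq : 0 ≤ ∑ j, x j ^ 2 := Finset.sum_nonneg fun j _ => sq_nonneg _
  have hmem : (vol (eball κ))⁻¹ • x ∈ eball (Unit ⊕ κ) ↔ ∑ j, x j ^ 2 ≤ vol (eball κ) ^ 2 := by
    show ∑ j, ((vol (eball κ))⁻¹ • x) j ^ 2 ≤ 1 ↔ _
    have e : ∑ j, ((vol (eball κ))⁻¹ • x) j ^ 2 = (vol (eball κ) ^ 2)⁻¹ * ∑ j, x j ^ 2 := by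
      rw [Finset.mul_sum]
      refine Finset.sum_congr rfl fun j _ => ?_
      simp only [Pi.smul_apply, smul_eq_mul]
      rw [mul_pow, inv_pow]
    rw [e, inv_mul_le_iff₀ (pow_pos hs 2), mul_one]
  rw [hmem]
  constructor
  · intro hx
    have h1 := hx x
    rw [shadow_eball] at h1
    have e : ∑ i, x i * x i = √(∑ j, x j ^ 2) * √(∑ j, x j ^ 2) := by
      rw [Real.mul_self_sqrt hq]
      exact Finset.sum_congr rfl fun i _ => (sq (x i)).symm
    rw [e] at h1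
    have hr : 0 ≤ √(∑ j, x j ^ 2) := Real.sqrt_nonneg _
    have h2 : √(∑ j, x j ^ 2) ≤ vol (eball κ) := by
      by_contra hcon
      have hlt : vol (eball κ) < √(∑ j, x j ^ 2) := not_le.mp hcon
      have hpos : 0 < √(∑ j, x j ^ 2) := lt_trans hs hlt
      nlinarith
    calc ∑ j, x j ^ 2 = √(∑ j, x j ^ 2) ^ 2 := (Real.sq_sqrt hq).symm
      _ ≤ vol (eball κ) ^ 2 := pow_le_pow_left₀ hr h2 2
  · intro hx u
    rw [shadow_eball]
    have hU : 0 ≤ ∑ j, u j ^ 2 := Finset.sum_nonneg fun j _ => sq_nonneg _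
    have hcs := Finset.sum_mul_sq_le_sq_mul_sq Finset.univ x u
    have h1 : ∑ i, x i * u i ≤ √((∑ j, x j ^ 2) * ∑ j, u j ^ 2) :=
      le_trans (le_abs_self _) (Real.abs_le_sqrt hcs)
    rw [Real.sqrt_mul hq] at h1
    have h2 : √(∑ j, x j ^ 2) ≤ vol (eball κ) := by
      rw [← Real.sqrt_sq hs.le]
      exact Real.sqrt_le_sqrt hx
    exact le_trans h1 (mul_le_mul_of_nonneg_right h2 (Real.sqrt_nonneg _))

/-- The Petty ratio of the Euclidean unit ball of `ℝ^(1+κ)`. -/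
theorem pettyRatio_eball :
    pettyRatio (eball (Unit ⊕ κ)) = pettyConst (Fintype.card κ + 1) := by
  unfold pettyRatio
  rw [projBody_eball, vol_smul_set vol_eball_pos.le, vol_eball, vol_eball]
  have hc : Fintype.card (Unit ⊕ κ) = Fintype.card κ + 1 := by
    rw [Fintype.card_sum, Fintype.card_unit, add_comm]
  rw [hc]
  unfold pettyConst
  simp only [Nat.add_sub_cancel]
  have hB : ballVol (Fintype.card κ + 1) ≠ 0 := (ballVol_pos _).ne'
  have e : ballVol (Fintype.card κ + 1) ^ (2 - ((Fintype.card κ + 1 : ℕ) : ℤ))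
      = ballVol (Fintype.card κ + 1) / ballVol (Fintype.card κ + 1) ^ Fintype.card κ := by
    have e' : (2 : ℤ) - ((Fintype.card κ + 1 : ℕ) : ℤ) = 1 - (Fintype.card κ : ℤ) := by
      push_cast
      ring
    rw [e', zpow_sub₀ hB, zpow_one, zpow_natCast]
  rw [e]
  ring

/-! ### Reindexing the coordinates -/

section Reindex

variable (e : ι ≃ κ)

/-- Renaming the coordinates along an equivalence of index types. -/
def reidx : (ι → ℝ) ≃ₗ[ℝ] (κ → ℝ) := LinearEquiv.funCongrLeft ℝ ℝ e.symm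

omit [Fintype ι] [Fintype κ] in
lemma reidx_apply (x : ι → ℝ) (j : κ) : reidx e x j = x (e.symm j) := rfl

omit [Fintype ι] [Fintype κ] in
lemma reidx_eq : ⇑(reidx e) = ⇑(MeasurableEquiv.piCongrLeft (fun _ : κ => ℝ) e) := by
  funext x j
  obtain ⟨i, rfl⟩ := e.surjective j
  rw [MeasurableEquiv.piCongrLeft_apply_apply, reidx_apply, Equiv.symm_apply_apply]

lemma vol_reidx (S : Set (ι → ℝ)) : vol (reidx e '' S) = vol S := by
  unfold vol
  rw [reidx_eq, MeasurableEquiv.image_eq_preimage_symm,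
    (volume_measurePreserving_piCongrLeft (fun _ : κ => ℝ) e).symm.measure_preimage_equiv]

lemma shadow_reidx (K : Set (ι → ℝ)) (u : ι → ℝ) :
    shadow (reidx e '' K) (reidx e u) = shadow K u := by
  unfold shadow
  rw [sweep_image, vol_reidx, vol_reidx]

lemma sum_reidx (x u : ι → ℝ) : ∑ j, reidx e x j * reidx e u j = ∑ i, x i * u i := by
  simp only [reidx_apply]
  exact Equiv.sum_comp e.symm (fun i => x i * u i)

lemma projBody_reidx (K : Set (ι → ℝ)) : projBody (reidx e '' K) = reidx e '' projBody K := by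
  ext x'
  obtain ⟨x, rfl⟩ := (reidx e).surjective x'
  rw [(reidx e).injective.mem_set_image]
  constructor
  · intro h u
    have h1 := h (reidx e u)
    rwa [shadow_reidx, sum_reidx] at h1
  · intro h w
    obtain ⟨u, rfl⟩ := (reidx e).surjective w
    rw [shadow_reidx, sum_reidx]
    exact h u

lemma pettyRatio_reidx (K : Set (ι → ℝ)) : pettyRatio (reidx e '' K) = pettyRatio K := by
  unfold pettyRatio
  rw [projBody_reidx, vol_reidx, vol_reidx, Fintype.card_congr e]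

lemma reidx_image_eball : reidx e '' eball ι = eball κ := by
  ext x'
  obtain ⟨x, rfl⟩ := (reidx e).surjective x'
  rw [(reidx e).injective.mem_set_image]
  show ∑ i, x i ^ 2 ≤ 1 ↔ ∑ j, reidx e x j ^ 2 ≤ 1
  have h : ∑ j, reidx e x j ^ 2 = ∑ i, x i ^ 2 := by
    simp only [reidx_apply]
    exact Equiv.sum_comp e.symm (fun i => x i ^ 2)
  rw [h]

end Reindex

/-- The Petty ratio of the Euclidean unit ball of `ℝ^ι` is `κ_{n-1}^n κ_n^{2-n}`,
`n = card ι ≥ 1`. -/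
theorem pettyRatio_eball_general [Nonempty ι] :
    pettyRatio (eball ι) = pettyConst (Fintype.card ι) := by
  obtain ⟨m, hm⟩ : ∃ m, Fintype.card ι = m + 1 :=
    Nat.exists_eq_succ_of_ne_zero Fintype.card_ne_zero
  have hc : Fintype.card ι = Fintype.card (Unit ⊕ Fin m) := by
    rw [Fintype.card_sum, Fintype.card_unit, Fintype.card_fin, hm, add_comm]
  rw [← pettyRatio_reidx (Fintype.equivOfCardEq hc), reidx_image_eball, pettyRatio_eball,
    Fintype.card_fin, hm]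

end

end Vale.Agent.Helper16.PettyBall
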