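import Mathlib
import Vale.Agent.Results.P045.MaxDegreeTwo

/-!
# Greedy deletion of vertices of degree at least three, and a cover bound

Lemmas behind the hand-in `P045.MaxDegreeThree`.  Same encoding as in `MaxDegreeTwo`: a
hypergraph is a finite set `H` of edges `e : Fin r → α`, the edge `e` containing the vertex
`(i, e i)` of part `i`.
-/

namespace Vale.Agent.Helper16.RyserGreedy

open Finset Vale.Agent.Results.P045.MaxDegreeTwo

/-- Greedy lemma: repeatedly delete a vertex lying in at least three edges.  This gives a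
vertex set `W` and a subhypergraph `H'` of maximum degree at most two such that every edge
outside `H'` contains a vertex of `W`, and `3|W| + |H'| ≤ |H|`. -/
theorem greedy {r : ℕ} {α : Type} [DecidableEq α] :
    ∀ (k : ℕ) (H : Finset (Fin r → α)), H.card = k →
      ∃ (W : Finset (Fin r × α)) (H' : Finset (Fin r → α)),
        H' ⊆ H ∧ (∀ e ∈ H, e ∉ H' → ∃ i, (i, e i) ∈ W) ∧
        (∀ (i : Fin r) (x : α), (H'.filter (fun e => e i = x)).card ≤ 2) ∧
        3 * W.card + H'.card ≤ H.card := by
  intro k
  induction k using Nat.strong_induction_on with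
  | _ k ih =>
    intro H hk
    by_cases hex : ∃ (i : Fin r) (x : α), 3 ≤ (H.filter (fun e => e i = x)).card
    · obtain ⟨i, x, h3⟩ := hex
      have hsplit : (H.filter (fun e => e i = x)).card +
          (H.filter (fun e => ¬ e i = x)).card = H.card :=
        card_filter_add_card_filter_not _
      obtain ⟨W, H', hsub, hcov, hdeg, hle⟩ :=
        ih (H.filter (fun e => ¬ e i = x)).card (by omega) (H.filter (fun e => ¬ e i = x)) rfl
      refine ⟨insert (i, x) W, H', fun e he => (mem_filter.mp (hsub he)).1, ?_, hdeg, ?_⟩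
      · intro e he heH'
        by_cases hx : e i = x
        · exact ⟨i, by rw [hx]; exact mem_insert_self _ _⟩
        · obtain ⟨j, hj⟩ := hcov e (mem_filter.mpr ⟨he, hx⟩) heH'
          exact ⟨j, mem_insert_of_mem hj⟩
      · have h1 : (insert (i, x) W).card ≤ W.card + 1 := card_insert_le _ _
        omega
    · push Not at hex
      refine ⟨∅, H, Subset.refl _, fun e he h => absurd he h, fun i x => ?_, by simp⟩
      have := hex i x
      omega

/-- In a hypergraph in which every vertex lies in at most `d + 1` edges, a maximum matching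
`M` satisfies `|H| ≤ (d r + 1)|M|`. -/
theorem card_le_of_deg {r : ℕ} (hr : 0 < r) {α : Type} [DecidableEq α] (d : ℕ)
    (H : Finset (Fin r → α))
    (hdeg : ∀ (i : Fin r) (x : α), (H.filter (fun e => e i = x)).card ≤ d + 1)
    (M : Finset (Fin r → α)) (hM : IsMatching H M)
    (hmax : ∀ M', IsMatching H M' → M'.card ≤ M.card) :
    H.card ≤ (d * r + 1) * M.card := by
  classical
  -- every edge meets an edge of `M`
  have hmeet : ∀ e ∈ H, ∃ f ∈ M, ∃ i, e i = f i := by
    intro e he
    by_contra hcon
    push Not at hcon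
    have heM : e ∉ M := fun h => hcon e h ⟨0, hr⟩ rfl
    have hins : IsMatching H (insert e M) := by
      refine ⟨?_, ?_⟩
      · intro g hg
        rcases mem_insert.mp hg with h | h
        · rw [h]; exact he
        · exact hM.1 h
      · intro g hg f hf hne i
        rcases mem_insert.mp hg with h | h
        · rcases mem_insert.mp hf with h' | h'
          · exact absurd (h.trans h'.symm) hne
          · rw [h]; exact hcon f h' i
        · rcases mem_insert.mp hf with h' | h'
          · rw [h']; exact fun hh => hcon g h i hh.symm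
          · exact hM.2 g h f h' hne i
    have := hmax _ hins
    rw [card_insert_of_notMem heM] at this
    omega
  -- the edges meeting a fixed edge `f` of `M` number at most `d r + 1`
  have hstar : ∀ f ∈ M, (H.filter (fun e => ∃ i, e i = f i)).card ≤ d * r + 1 := by
    intro f hf
    have hfH : f ∈ H := hM.1 hf
    have hsub : H.filter (fun e => ∃ i, e i = f i) ⊆
        insert f ((univ : Finset (Fin r)).biUnion
          (fun i => (H.filter (fun e => e i = f i)).erase f)) := by
      intro e he
      rw [mem_filter] at he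
      obtain ⟨heH, i, hi⟩ := he
      by_cases hef : e = f
      · rw [hef]; exact mem_insert_self _ _
      · refine mem_insert_of_mem (mem_biUnion.mpr ⟨i, mem_univ _, ?_⟩)
        exact mem_erase.mpr ⟨hef, mem_filter.mpr ⟨heH, hi⟩⟩
    have hone : ∀ i : Fin r, ((H.filter (fun e => e i = f i)).erase f).card ≤ d := by
      intro i
      have hmem : f ∈ H.filter (fun e => e i = f i) := mem_filter.mpr ⟨hfH, rfl⟩
      rw [card_erase_of_mem hmem]
      have := hdeg i (f i)
      omega
    calc (H.filter (fun e => ∃ i, e i = f i)).card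
        ≤ (insert f ((univ : Finset (Fin r)).biUnion
            (fun i => (H.filter (fun e => e i = f i)).erase f))).card := card_le_card hsub
      _ ≤ ((univ : Finset (Fin r)).biUnion
            (fun i => (H.filter (fun e => e i = f i)).erase f)).card + 1 := card_insert_le _ _
      _ ≤ (∑ i : Fin r, ((H.filter (fun e => e i = f i)).erase f).card) + 1 :=
          Nat.add_le_add_right card_biUnion_le 1
      _ ≤ (∑ _i : Fin r, d) + 1 := Nat.add_le_add_right (sum_le_sum (fun i _ => hone i)) 1
      _ = d * r + 1 := by simp [mul_comm]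
  have hcov : H ⊆ M.biUnion (fun f => H.filter (fun e => ∃ i, e i = f i)) := by
    intro e he
    obtain ⟨f, hf, i, hi⟩ := hmeet e he
    exact mem_biUnion.mpr ⟨f, hf, mem_filter.mpr ⟨he, i, hi⟩⟩
  calc H.card ≤ (M.biUnion (fun f => H.filter (fun e => ∃ i, e i = f i))).card :=
        card_le_card hcov
    _ ≤ ∑ f ∈ M, (H.filter (fun e => ∃ i, e i = f i)).card := card_biUnion_le
    _ ≤ ∑ _f ∈ M, (d * r + 1) := sum_le_sum hstar
    _ = (d * r + 1) * M.card := by rw [sum_const, smul_eq_mul, mul_comm]

/-- The cover bound: if no matching of `H` has more edges than `M`, then `H` has a vertex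
cover `C` with `6|C| ≤ 2|H| + (r + 4)|M|`. -/
theorem cover_bound {r : ℕ} (hr : 0 < r) {α : Type} [DecidableEq α]
    (H M : Finset (Fin r → α))
    (hmax : ∀ M', IsMatching H M' → M'.card ≤ M.card) :
    ∃ C : Finset (Fin r × α), IsCover H C ∧ 6 * C.card ≤ 2 * H.card + (r + 4) * M.card := by
  classical
  obtain ⟨W, H', hsub, hcovW, hdeg, hle⟩ := greedy H.card H rfl
  -- a maximum matching `M2` of `H'`
  have hne : (H'.powerset.filter
      (fun M' => ∀ e ∈ M', ∀ f ∈ M', e ≠ f → ∀ i, e i ≠ f i)).Nonempty :=
    ⟨∅, mem_filter.mpr ⟨empty_mem_powerset _, by simp⟩⟩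
  obtain ⟨M2, hM2mem, hM2max⟩ := exists_max_image _ Finset.card hne
  have hM2 : IsMatching H' M2 := by
    rw [mem_filter, mem_powerset] at hM2mem
    exact hM2mem
  have hM2max' : ∀ M', IsMatching H' M' → M'.card ≤ M2.card := by
    intro M' hM'
    exact hM2max M' (mem_filter.mpr ⟨mem_powerset.mpr hM'.1, hM'.2⟩)
  have h1 : H'.card ≤ (r + 1) * M2.card := card_le_of_deg_two hr H' hdeg M2 hM2 hM2max'
  have h2 : M2.card ≤ M.card := hmax M2 ⟨hM2.1.trans hsub, hM2.2⟩
  obtain ⟨C', M', hC', hM', hle'⟩ := pairing hr H'.card H' rfl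
  have h3 : M'.card ≤ M.card := hmax M' ⟨hM'.1.trans hsub, hM'.2⟩
  refine ⟨W ∪ C', ?_, ?_⟩
  · intro e he
    by_cases heH' : e ∈ H'
    · obtain ⟨i, hi⟩ := hC' e heH'
      exact ⟨i, mem_union_right _ hi⟩
    · obtain ⟨i, hi⟩ := hcovW e he heH'
      exact ⟨i, mem_union_left _ hi⟩
  · have h4 : (W ∪ C').card ≤ W.card + C'.card := card_union_le _ _
    have h5 : (r + 1) * M2.card ≤ (r + 1) * M.card := Nat.mul_le_mul_left _ h2
    nlinarith

end Vale.Agent.Helper16.RyserGreedy
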